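import Vale.Agent.Lib.P079.Maurey

namespace Vale.Agent.Results.P079.BetweennessCriterion

open Set Filter Topology Vale.Agent.Lib.P079

/-- A map-free sufficient condition for the fixed point property in reflexive spaces.
Suppose that for every closed bounded convex `K` of positive diameter and every sequence `x` in
`K` with vanishing steps which is asymptotically diametral with respect to every point of `K`,
one can choose reindexings `ψ, φ → ∞` and a ratio `c ∈ [0,1]` such that no sequence `z` in `K`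
lying asymptotically between `x ∘ ψ` and `x ∘ φ` at ratio `c` is asymptotically diametral with
respect to every point of `K`. Then every nonexpansive self-map of a nonempty closed bounded
convex subset has a fixed point. -/
theorem result {X : Type*} [NormedAddCommGroup X] [NormedSpace ℝ X] [CompleteSpace X]
    (hrefl : Function.Surjective (NormedSpace.inclusionInDoubleDual ℝ X))
    (hG : ∀ (K : Set X) (x : ℕ → X), IsClosed K → Convex ℝ K → Bornology.IsBounded K →
      0 < Metric.diam K → (∀ n, x n ∈ K) →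
      Tendsto (fun n => ‖x (n + 1) - x n‖) atTop (𝓝 0) →
      (∀ p ∈ K, Tendsto (fun n => ‖x n - p‖) atTop (𝓝 (Metric.diam K))) →
      ∃ (ψ φ : ℕ → ℕ) (c : ℝ), Tendsto ψ atTop atTop ∧ Tendsto φ atTop atTop ∧ 0 ≤ c ∧ c ≤ 1 ∧
        ∀ z : ℕ → X, (∀ n, z n ∈ K) →
          (∀ δ > 0, ∀ᶠ n in atTop, ‖z n - x (ψ n)‖ ≤ c * ‖x (ψ n) - x (φ n)‖ + δ ∧
            ‖z n - x (φ n)‖ ≤ (1 - c) * ‖x (ψ n) - x (φ n)‖ + δ) →
          ∃ p ∈ K, ¬ Tendsto (fun n => ‖z n - p‖) atTop (𝓝 (Metric.diam K)))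
    (C : Set X) (hC : C.Nonempty) (hclosed : IsClosed C) (hbdd : Bornology.IsBounded C)
    (hconv : Convex ℝ C) (T : X → X) (hT : MapsTo T C C)
    (hne : ∀ a ∈ C, ∀ b ∈ C, ‖T a - T b‖ ≤ ‖a - b‖) :
    ∃ x ∈ C, T x = x := by
  obtain ⟨K, hKC, hK⟩ := exists_minimal hrefl (C := C) (T := T) ⟨hC, hclosed, hconv, hT⟩ hbdd
  have hbK : Bornology.IsBounded K := hbdd.subset hKC
  have hneK : ∀ a ∈ K, ∀ b ∈ K, ‖T a - T b‖ ≤ ‖a - b‖ :=
    fun a ha b hb => hne a (hKC ha) b (hKC hb)
  by_cases hdiam : 0 < Metric.diam K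
  · exfalso
    obtain ⟨x, hxK, hx1, hx2⟩ := exists_afps hK.1 hneK (D := Metric.diam K)
      (fun a ha b hb => by
        have := Metric.dist_le_diam_of_mem hbK ha hb
        rwa [dist_eq_norm] at this)
    have hlim : Tendsto (fun n : ℕ => Metric.diam K / ((n : ℝ) + 1)) atTop (𝓝 0) :=
      tendsto_const_div_atTop_nhds_zero_nat (Metric.diam K) |>.comp (tendsto_add_atTop_nat 1)
        |>.congr (fun n => by simp)
    have hxafp : Tendsto (fun n => ‖x n - T (x n)‖) atTop (𝓝 0) :=
      squeeze_zero (fun n => norm_nonneg _) hx1 hlim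
    obtain ⟨ψ, φ, c, hψ, hφ, hc0, hc1, hz⟩ := hG K x hK.1.closed hK.1.convex hbK hdiam hxK
      (squeeze_zero (fun n => norm_nonneg _) hx2 hlim)
      (fun p hp => hK.goebel_karlovitz hrefl hbK hneK x hxK hxafp hp)
    have hw : ∀ n, (1 - c) • x (ψ n) + c • x (φ n) ∈ K := fun n =>
      hK.1.convex (hxK _) (hxK _) (by linarith) hc0 (by ring)
    obtain ⟨z, hzK, hzafp, hzc⟩ := maurey hK.1 hbK hneK (fun n => x (ψ n)) (fun n => x (φ n))
      (fun n => hxK _) (fun n => hxK _) (hxafp.comp hψ) (hxafp.comp hφ)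
      (fun n => (1 - c) • x (ψ n) + c • x (φ n)) hw
    obtain ⟨p, hp, hnot⟩ := hz z hzK (by
      intro δ hδ
      filter_upwards [hzc δ hδ] with n hn
      have e1 : (1 - c) • x (ψ n) + c • x (φ n) - x (ψ n) = (-c) • (x (ψ n) - x (φ n)) := by
        module
      have e2 : (1 - c) • x (ψ n) + c • x (φ n) - x (φ n) = (1 - c) • (x (ψ n) - x (φ n)) := by
        module
      have n1 : ‖(1 - c) • x (ψ n) + c • x (φ n) - x (ψ n)‖ = c * ‖x (ψ n) - x (φ n)‖ := by
        rw [e1, norm_smul, norm_neg, Real.norm_of_nonneg hc0]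
      have n2 : ‖(1 - c) • x (ψ n) + c • x (φ n) - x (φ n)‖
          = (1 - c) * ‖x (ψ n) - x (φ n)‖ := by
        rw [e2, norm_smul, Real.norm_of_nonneg (by linarith)]
      rw [n1, n2] at hn
      exact hn)
    exact hnot (hK.goebel_karlovitz hrefl hbK hneK z hzK hzafp hp)
  · have h0 : Metric.diam K = 0 := le_antisymm (not_lt.1 hdiam) Metric.diam_nonneg
    obtain ⟨x, hx⟩ := hK.1.nonempty
    have hTx : T x ∈ K := hK.1.mapsTo hx
    have hd := Metric.dist_le_diam_of_mem hbK hTx hx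
    rw [h0] at hd
    exact ⟨x, hKC hx, dist_le_zero.1 hd⟩

end Vale.Agent.Results.P079.BetweennessCriterion
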