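import Vale.Agent.Lib.P079.Maurey

namespace Vale.Agent.Results.P079.MaureyLinStructure

open Set Filter Topology Vale.Agent.Lib.P079

/-- Sequence (ultrapower-free) forms of the Maurey and Lin lemmas on a minimal invariant set `K`
of a nonexpansive map `T` in a reflexive Banach space: given approximate fixed point sequences
`u`, `v` and an arbitrary sequence `w` in `K`,
(1) there is an approximate fixed point sequence `z` in `K` asymptotically as close to `u` and `v`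
as `w` is, and it is asymptotically diametral with respect to every point of `K`;
(2) for all `q, p ∈ K` and `ε > 0` there is a sequence `z` in `K` of `ε`-approximate fixed points,
asymptotically as close to `u`, `v` as `w` is, with `‖z n - z m‖ ≤ ‖w n - w m‖`, uniformly as close
(up to `ε`) to some point `q'` of `K` as `w` is to `q`, and frequently `ε`-diametral to `p`. -/
theorem result {X : Type*} [NormedAddCommGroup X] [NormedSpace ℝ X] [CompleteSpace X]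
    (hrefl : Function.Surjective (NormedSpace.inclusionInDoubleDual ℝ X))
    (K : Set X) (hK : K.Nonempty) (hclosed : IsClosed K) (hbdd : Bornology.IsBounded K)
    (hconv : Convex ℝ K) (T : X → X) (hT : MapsTo T K K)
    (hne : ∀ a ∈ K, ∀ b ∈ K, ‖T a - T b‖ ≤ ‖a - b‖)
    (hmin : ∀ D : Set X, D ⊆ K → D.Nonempty → IsClosed D → Convex ℝ D → MapsTo T D D → D = K)
    (u v : ℕ → X) (hu : ∀ n, u n ∈ K) (hv : ∀ n, v n ∈ K)
    (hu' : Tendsto (fun n => ‖u n - T (u n)‖) atTop (𝓝 0))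
    (hv' : Tendsto (fun n => ‖v n - T (v n)‖) atTop (𝓝 0))
    (w : ℕ → X) (hw : ∀ n, w n ∈ K) :
    (∃ z : ℕ → X, (∀ n, z n ∈ K) ∧ Tendsto (fun n => ‖z n - T (z n)‖) atTop (𝓝 0) ∧
      (∀ δ > 0, ∀ᶠ n in atTop,
        ‖z n - u n‖ ≤ ‖w n - u n‖ + δ ∧ ‖z n - v n‖ ≤ ‖w n - v n‖ + δ) ∧
      ∀ p ∈ K, Tendsto (fun n => ‖z n - p‖) atTop (𝓝 (Metric.diam K))) ∧
    (∀ q ∈ K, ∀ p ∈ K, ∀ ε > 0, ∃ z : ℕ → X, (∀ n, z n ∈ K) ∧ (∀ n, ‖z n - T (z n)‖ ≤ ε) ∧
      (∀ δ > 0, ∀ᶠ n in atTop,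
        ‖z n - u n‖ ≤ ‖w n - u n‖ + δ ∧ ‖z n - v n‖ ≤ ‖w n - v n‖ + δ) ∧
      (∀ n m, ‖z n - z m‖ ≤ ‖w n - w m‖) ∧
      (∃ q' ∈ K, ∀ n, ‖z n - q'‖ ≤ ‖w n - q‖ + ε) ∧
      (∃ᶠ n in atTop, Metric.diam K - ε < ‖z n - p‖)) := by
  have hInv : Inv T K := ⟨hK, hclosed, hconv, hT⟩
  have hMin : IsMinInv T K :=
    ⟨hInv, fun D hD hDinv => hmin D hD hDinv.nonempty hDinv.closed hDinv.convex hDinv.mapsTo⟩
  constructor
  · obtain ⟨z, hzK, hz, hzc⟩ := maurey hInv hbdd hne u v hu hv hu' hv' w hw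
    exact ⟨z, hzK, hz, hzc, fun p hp => hMin.goebel_karlovitz hrefl hbdd hne z hzK hz hp⟩
  · intro q hq p hp ε hε
    exact hMin.lin hrefl hbdd hne u v hu hv hu' hv' w hw hq hp hε

end Vale.Agent.Results.P079.MaureyLinStructure
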