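import Vale.Agent.Lib.P079.Basic

namespace Vale.Agent.Results.P079.MinimalSetStructure

open Set Filter Topology Vale.Agent.Lib.P079

/-- Structure of a hypothetical counterexample to the fixed point property in a reflexive
Banach space: a fixed-point-free nonexpansive self-map of a nonempty closed bounded convex set
leaves invariant a minimal closed convex set of positive diameter all of whose points are
diametral, on which every approximate fixed point sequence is asymptotically diametral
(Goebel-Karlovitz), which carries a slowly moving approximate fixed point sequence, and in which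
every orbit is asymptotically diametral. -/
theorem result {X : Type*} [NormedAddCommGroup X] [NormedSpace ℝ X] [CompleteSpace X]
    (hrefl : Function.Surjective (NormedSpace.inclusionInDoubleDual ℝ X))
    (C : Set X) (hC : C.Nonempty) (hclosed : IsClosed C) (hbdd : Bornology.IsBounded C)
    (hconv : Convex ℝ C) (T : X → X) (hT : MapsTo T C C)
    (hne : ∀ a ∈ C, ∀ b ∈ C, ‖T a - T b‖ ≤ ‖a - b‖)
    (hfpf : ∀ x ∈ C, T x ≠ x) :
    ∃ K : Set X, K ⊆ C ∧ K.Nonempty ∧ IsClosed K ∧ Convex ℝ K ∧ MapsTo T K K ∧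
      0 < Metric.diam K ∧
      (∀ D : Set X, D ⊆ K → D.Nonempty → IsClosed D → Convex ℝ D → MapsTo T D D → D = K) ∧
      closedConvexHull ℝ (T '' K) = K ∧
      (∀ x ∈ K, ∀ r < Metric.diam K, ∃ y ∈ K, r < ‖x - y‖) ∧
      (∀ u : ℕ → X, (∀ n, u n ∈ K) → Tendsto (fun n => ‖u n - T (u n)‖) atTop (𝓝 0) →
        ∀ p ∈ K, Tendsto (fun n => ‖u n - p‖) atTop (𝓝 (Metric.diam K))) ∧
      (∃ u : ℕ → X, (∀ n, u n ∈ K) ∧ Tendsto (fun n => ‖u n - T (u n)‖) atTop (𝓝 0) ∧
        Tendsto (fun n => ‖u (n + 1) - u n‖) atTop (𝓝 0)) ∧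
      (∀ x ∈ K, ∀ p ∈ K, ∀ r < Metric.diam K, ∃ᶠ n in atTop, r < ‖T^[n] x - p‖) := by
  obtain ⟨K, hKC, hK⟩ := exists_minimal hrefl (C := C) (T := T) ⟨hC, hclosed, hconv, hT⟩ hbdd
  have hbK : Bornology.IsBounded K := hbdd.subset hKC
  have hneK : ∀ a ∈ K, ∀ b ∈ K, ‖T a - T b‖ ≤ ‖a - b‖ :=
    fun a ha b hb => hne a (hKC ha) b (hKC hb)
  have hdiam : 0 < Metric.diam K := by
    by_contra hcon
    have h0 : Metric.diam K = 0 := le_antisymm (not_lt.1 hcon) Metric.diam_nonneg
    obtain ⟨x, hx⟩ := hK.1.nonempty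
    have hTx : T x ∈ K := hK.1.mapsTo hx
    have hd := Metric.dist_le_diam_of_mem hbK hTx hx
    rw [h0] at hd
    exact hfpf x (hKC hx) (dist_le_zero.1 hd)
  refine ⟨K, hKC, hK.1.nonempty, hK.1.closed, hK.1.convex, hK.1.mapsTo, hdiam, ?_, hK.hull,
    ?_, ?_, ?_, ?_⟩
  · intro D hDK hDne hDcl hDcv hDT
    exact hK.2 D hDK ⟨hDne, hDcl, hDcv, hDT⟩
  · intro x hx r hr
    by_contra hcon
    push Not at hcon
    have key := hK.diametral hneK hx (r := max r 0)
      (fun q hq => (hcon q hq).trans (le_max_left _ _))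
    have : Metric.diam K ≤ max r 0 := by
      apply Metric.diam_le_of_forall_dist_le (le_max_right _ _)
      intro a ha b hb
      rw [dist_eq_norm]; exact key a ha b hb
    rcases max_cases r 0 with h | h <;> linarith
  · intro u hu hafp p hp
    exact hK.goebel_karlovitz hrefl hbK hneK u hu hafp hp
  · obtain ⟨u, huK, hu1, hu2⟩ := exists_afps hK.1 hneK (D := Metric.diam K)
      (fun a ha b hb => by
        have := Metric.dist_le_diam_of_mem hbK ha hb
        rwa [dist_eq_norm] at this)
    have hlim : Tendsto (fun n : ℕ => Metric.diam K / ((n : ℝ) + 1)) atTop (𝓝 0) :=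
      tendsto_const_div_atTop_nhds_zero_nat (Metric.diam K) |>.comp (tendsto_add_atTop_nat 1)
        |>.congr (fun n => by simp)
    refine ⟨u, huK, ?_, ?_⟩
    · exact squeeze_zero (fun n => norm_nonneg _) hu1 hlim
    · exact squeeze_zero (fun n => norm_nonneg _) hu2 hlim
  · intro x hx p hp r hr
    exact hK.orbit hrefl hbK hneK hx hp hr

end Vale.Agent.Results.P079.MinimalSetStructure
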