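import Vale.Agent.Results.P079.BetweennessCriterion
import Vale.Agent.Results.P079.MinimalSetStructure
import Vale.Agent.Results.P079.MaureyLinStructure

namespace Vale.Agent.Results.P079.CriterionAndStructure

open Set Filter Topology

/-- Three facts about nonexpansive maps in a reflexive real Banach space `X`, in one statement.
(I) A map-free sufficient condition for the fixed point property: if for every closed bounded
convex `K` of positive diameter and every sequence `x` in `K` with vanishing steps which is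
asymptotically diametral with respect to every point of `K` one can choose reindexings
`ψ, φ → ∞` and a ratio `c ∈ [0,1]` such that no sequence `z` in `K` lying asymptotically between
`x ∘ ψ` and `x ∘ φ` at ratio `c` is asymptotically diametral with respect to every point of `K`,
then every nonexpansive self-map of a nonempty closed bounded convex subset has a fixed point.
(II) Structure of a hypothetical counterexample: a fixed-point-free nonexpansive self-map of a
nonempty closed bounded convex set leaves invariant a minimal closed convex set of positive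
diameter all of whose points are diametral, on which every approximate fixed point sequence is
asymptotically diametral, which carries a slowly moving approximate fixed point sequence, and in
which every orbit is asymptotically diametral.
(III) Sequence forms of the Maurey and Lin lemmas on a minimal invariant set. -/
theorem result {X : Type*} [NormedAddCommGroup X] [NormedSpace ℝ X] [CompleteSpace X]
    (hrefl : Function.Surjective (NormedSpace.inclusionInDoubleDual ℝ X)) :
    ((∀ (K : Set X) (x : ℕ → X), IsClosed K → Convex ℝ K → Bornology.IsBounded K →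
        0 < Metric.diam K → (∀ n, x n ∈ K) →
        Tendsto (fun n => ‖x (n + 1) - x n‖) atTop (𝓝 0) →
        (∀ p ∈ K, Tendsto (fun n => ‖x n - p‖) atTop (𝓝 (Metric.diam K))) →
        ∃ (ψ φ : ℕ → ℕ) (c : ℝ), Tendsto ψ atTop atTop ∧ Tendsto φ atTop atTop ∧ 0 ≤ c ∧ c ≤ 1 ∧
          ∀ z : ℕ → X, (∀ n, z n ∈ K) →
            (∀ δ > 0, ∀ᶠ n in atTop, ‖z n - x (ψ n)‖ ≤ c * ‖x (ψ n) - x (φ n)‖ + δ ∧
              ‖z n - x (φ n)‖ ≤ (1 - c) * ‖x (ψ n) - x (φ n)‖ + δ) →
            ∃ p ∈ K, ¬ Tendsto (fun n => ‖z n - p‖) atTop (𝓝 (Metric.diam K))) →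
      ∀ (C : Set X), C.Nonempty → IsClosed C → Bornology.IsBounded C → Convex ℝ C →
        ∀ T : X → X, MapsTo T C C → (∀ a ∈ C, ∀ b ∈ C, ‖T a - T b‖ ≤ ‖a - b‖) →
          ∃ x ∈ C, T x = x) ∧
    (∀ (C : Set X), C.Nonempty → IsClosed C → Bornology.IsBounded C → Convex ℝ C →
      ∀ T : X → X, MapsTo T C C → (∀ a ∈ C, ∀ b ∈ C, ‖T a - T b‖ ≤ ‖a - b‖) →
        (∀ x ∈ C, T x ≠ x) →
        ∃ K : Set X, K ⊆ C ∧ K.Nonempty ∧ IsClosed K ∧ Convex ℝ K ∧ MapsTo T K K ∧
          0 < Metric.diam K ∧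
          (∀ D : Set X, D ⊆ K → D.Nonempty → IsClosed D → Convex ℝ D → MapsTo T D D → D = K) ∧
          closedConvexHull ℝ (T '' K) = K ∧
          (∀ x ∈ K, ∀ r < Metric.diam K, ∃ y ∈ K, r < ‖x - y‖) ∧
          (∀ u : ℕ → X, (∀ n, u n ∈ K) → Tendsto (fun n => ‖u n - T (u n)‖) atTop (𝓝 0) →
            ∀ p ∈ K, Tendsto (fun n => ‖u n - p‖) atTop (𝓝 (Metric.diam K))) ∧
          (∃ u : ℕ → X, (∀ n, u n ∈ K) ∧ Tendsto (fun n => ‖u n - T (u n)‖) atTop (𝓝 0) ∧
            Tendsto (fun n => ‖u (n + 1) - u n‖) atTop (𝓝 0)) ∧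
          (∀ x ∈ K, ∀ p ∈ K, ∀ r < Metric.diam K, ∃ᶠ n in atTop, r < ‖T^[n] x - p‖)) ∧
    (∀ (K : Set X), K.Nonempty → IsClosed K → Bornology.IsBounded K → Convex ℝ K →
      ∀ T : X → X, MapsTo T K K → (∀ a ∈ K, ∀ b ∈ K, ‖T a - T b‖ ≤ ‖a - b‖) →
        (∀ D : Set X, D ⊆ K → D.Nonempty → IsClosed D → Convex ℝ D → MapsTo T D D → D = K) →
        ∀ u v : ℕ → X, (∀ n, u n ∈ K) → (∀ n, v n ∈ K) →
          Tendsto (fun n => ‖u n - T (u n)‖) atTop (𝓝 0) →
          Tendsto (fun n => ‖v n - T (v n)‖) atTop (𝓝 0) →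
          ∀ w : ℕ → X, (∀ n, w n ∈ K) →
            (∃ z : ℕ → X, (∀ n, z n ∈ K) ∧ Tendsto (fun n => ‖z n - T (z n)‖) atTop (𝓝 0) ∧
              (∀ δ > 0, ∀ᶠ n in atTop,
                ‖z n - u n‖ ≤ ‖w n - u n‖ + δ ∧ ‖z n - v n‖ ≤ ‖w n - v n‖ + δ) ∧
              ∀ p ∈ K, Tendsto (fun n => ‖z n - p‖) atTop (𝓝 (Metric.diam K))) ∧
            (∀ q ∈ K, ∀ p ∈ K, ∀ ε > 0, ∃ z : ℕ → X, (∀ n, z n ∈ K) ∧
              (∀ n, ‖z n - T (z n)‖ ≤ ε) ∧
              (∀ δ > 0, ∀ᶠ n in atTop,
                ‖z n - u n‖ ≤ ‖w n - u n‖ + δ ∧ ‖z n - v n‖ ≤ ‖w n - v n‖ + δ) ∧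
              (∀ n m, ‖z n - z m‖ ≤ ‖w n - w m‖) ∧
              (∃ q' ∈ K, ∀ n, ‖z n - q'‖ ≤ ‖w n - q‖ + ε) ∧
              (∃ᶠ n in atTop, Metric.diam K - ε < ‖z n - p‖))) :=
  ⟨fun hG C hC hclosed hbdd hconv T hT hne =>
      Vale.Agent.Results.P079.BetweennessCriterion.result hrefl hG C hC hclosed hbdd hconv T hT
        hne,
    fun C hC hclosed hbdd hconv T hT hne hfpf =>
      Vale.Agent.Results.P079.MinimalSetStructure.result hrefl C hC hclosed hbdd hconv T hT hne
        hfpf,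
    fun K hK hclosed hbdd hconv T hT hne hmin u v hu hv hu' hv' w hw =>
      Vale.Agent.Results.P079.MaureyLinStructure.result hrefl K hK hclosed hbdd hconv T hT hne
        hmin u v hu hv hu' hv' w hw⟩

end Vale.Agent.Results.P079.CriterionAndStructure
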